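import Vale.Agent.P331.H316.Rows
import Vale.Agent.P331.F.Sock

/-!
# The rule of the constant ratio (row RULE)
-/

set_option autoImplicit false
set_option linter.unusedSectionVars false
set_option linter.unusedVariables false

namespace Vale.Agent.P331.H316.R763

open Finset Vale.Agent.P331 Vale.Agent.P331.H489 Vale.Agent.P331.H316 Vale.Agent.P331.H352
open scoped Classical ENNReal

section thin

variable {E : Type} [Fintype E]

theorem tw_nonneg {τ : ℝ} (h0 : 0 ≤ τ) (h1 : τ ≤ 1) (b : Bool) : 0 ≤ tw τ b := by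
  unfold tw
  split_ifs <;> linarith

theorem tw_sum (τ : ℝ) : ∑ b, tw τ b = 1 := by
  rw [sum_bool]
  simp [tw]

theorem ind_nonneg' (P : Prop) : 0 ≤ ind P := by
  unfold ind
  split_ifs <;> norm_num

theorem ind_true {P : Prop} (h : P) : ind P = 1 := if_pos h

theorem ind_false {P : Prop} (h : ¬ P) : ind P = 0 := if_neg h

theorem ind_mono {P Q : Prop} (h : P → Q) : ind P ≤ ind Q := by
  by_cases hP : P
  · rw [ind_true hP, ind_true (h hP)]
  · rw [ind_false hP]; exact ind_nonneg' Q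

theorem thin_const (τ : ℝ) (S : Finset E) (c : ℝ) : thin τ S (fun _ => c) = c :=
  EX_one _ (fun _ => tw_sum τ) c

theorem thin_mono {τ : ℝ} (h0 : 0 ≤ τ) (h1 : τ ≤ 1) (S : Finset E) {F G : Finset E → ℝ}
    (h : ∀ U, U ⊆ S → F U ≤ G U) : thin τ S F ≤ thin τ S G :=
  EX_mono (fun _ => tw_nonneg h0 h1) fun c => h _ (filter_subset _ _)

theorem thin_congr {τ : ℝ} (S : Finset E) {F G : Finset E → ℝ}
    (h : ∀ U, U ⊆ S → F U = G U) : thin τ S F = thin τ S G := by
  unfold thin
  congr 1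
  funext c
  exact h _ (filter_subset _ _)

theorem thin_nonneg {τ : ℝ} (h0 : 0 ≤ τ) (h1 : τ ≤ 1) (S : Finset E) {F : Finset E → ℝ}
    (h : ∀ U, U ⊆ S → 0 ≤ F U) : 0 ≤ thin τ S F :=
  EX_nonneg (fun _ => tw_nonneg h0 h1) fun c => h _ (filter_subset _ _)

/-- the empty set has a positive probability -/
theorem thin_ge_empty {τ : ℝ} (h0 : 0 ≤ τ) (h1 : τ ≤ 1) (S : Finset E) {F : Finset E → ℝ}
    (h : ∀ U, U ⊆ S → 0 ≤ F U) : (1 - τ) ^ Fintype.card E * F ∅ ≤ thin τ S F := by
  unfold thin EX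
  have h2 := single_le_sum (f := fun c : E → Bool => (∏ e, tw τ (c e)) *
    F (S.filter fun e => c e = true)) (s := univ)
    (fun c _ => mul_nonneg (prod_nonneg fun e _ => tw_nonneg h0 h1 _) (h _ (filter_subset _ _)))
    (mem_univ fun _ => false)
  refine le_trans (le_of_eq ?_) h2
  simp [tw]

/-- restriction -/
theorem thin_inter (τ : ℝ) (S A : Finset E) {F G : Finset E → ℝ}
    (h : ∀ U, U ⊆ S → F U = G (U ∩ A)) : thin τ S F = thin τ (S ∩ A) G := by
  unfold thin
  congr 1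
  funext c
  rw [h _ (filter_subset _ _), filter_inter]

end thin

section restr

variable {E : Type} [Fintype E] {D D' : Finset E → Prop} {A : Finset E}

/-- `D'` looks only at the elements of `A` -/
def Res (D D' : Finset E → Prop) (A : Finset E) : Prop := ∀ U, D' U ↔ D (U ∩ A)

theorem psi_res (h : Res D D' A) (t : ℝ) (I U : Finset E) :
    psi D' t I U = psi D t (I ∩ A) (U ∩ A) := by
  unfold psi
  refine thin_inter t I A fun N _ => ?_
  rw [h, union_inter_distrib_right]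

theorem fl_res (h : Res D D' A) (n t e : ℝ) (R I U : Finset E) :
    fl D' n t e R I U = fl D n t e (R ∩ A) (I ∩ A) (U ∩ A) := by
  unfold fl
  refine thin_inter n R A fun N _ => ?_
  rw [psi_res h, union_inter_distrib_right]

theorem bb_res (h : Res D D' A) (n t e lam : ℝ) (kap : ℕ) (R I X G : Finset E) (hX : X ⊆ A) :
    bb D' n t e lam kap R I X G ↔ bb D n t e lam kap (R ∩ A) (I ∩ A) X (G ∩ A) := by
  unfold bb
  refine exists_congr fun Y => and_congr_right fun hY => ?_
  rw [fl_res h, union_inter_distrib_right, inter_eq_left.2 (hY.trans hX)]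
  have : (R \ G) ∩ A = (R ∩ A) \ (G ∩ A) := by
    ext e
    simp only [mem_inter, mem_sdiff]
    tauto
  rw [this]

theorem BB_res (h : Res D D' A) (g n t e lam zet : ℝ) (kap : ℕ) (R I X : Finset E)
    (hX : X ⊆ A) :
    BB D' g n t e lam zet kap R I X ↔ BB D g n t e lam zet kap (R ∩ A) (I ∩ A) X := by
  unfold BB
  have : thin g R (fun G => ind (bb D' n t e lam kap R I X G)) =
      thin g (R ∩ A) (fun G => ind (bb D n t e lam kap (R ∩ A) (I ∩ A) X G)) :=
    thin_inter g R A fun G _ => congrArg ind (propext (bb_res h n t e lam kap R I X G hX))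
  rw [this]

theorem Piv_res (h : Res D D' A) {b : E} (hb : b ∈ A) (U : Finset E) :
    Piv D' b U ↔ Piv D b (U ∩ A) := by
  unfold Piv
  rw [h, h, insert_inter_of_mem hb]
  have : (U.erase b) ∩ A = (U ∩ A).erase b := by
    ext e
    simp only [mem_inter, mem_erase]
    tauto
  rw [this]

theorem ppiv_res (h : Res D D' A) {b : E} (hb : b ∈ A) (t : ℝ) (I U : Finset E) :
    ppiv D' t I b U = ppiv D t (I ∩ A) b (U ∩ A) := by
  unfold ppiv
  refine thin_inter t I A fun N _ => ?_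
  rw [Piv_res h hb, union_inter_distrib_right]

theorem rel_res (h : Res D D' A) {b : E} (hb : b ∈ A) (t dl : ℝ) (kap : ℕ)
    (I X W : Finset E) (hX : X ⊆ A) :
    rel D' t dl kap I X b W ↔ rel D t dl kap (I ∩ A) X b (W ∩ A) := by
  unfold rel
  refine exists_congr fun U => and_congr_right fun hU => ?_
  rw [ppiv_res h hb, union_inter_distrib_right,
    inter_eq_left.2 ((hU.trans (erase_subset _ _)).trans hX)]

theorem rho_res (h : Res D D' A) {b : E} (hb : b ∈ A) (g n t dl : ℝ) (kap : ℕ)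
    (R I X : Finset E) (hX : X ⊆ A) :
    rho D' g n t dl kap R I X b = rho D g n t dl kap (R ∩ A) (I ∩ A) X b := by
  unfold rho
  refine thin_inter g R A fun G _ => ?_
  have h2 : (R \ G) ∩ A = (R ∩ A) \ (G ∩ A) := by
    ext e
    simp only [mem_inter, mem_sdiff]
    tauto
  rw [← h2]
  refine thin_inter n (R \ G) A fun N _ => ?_
  refine congrArg ind (propext ?_)
  rw [rel_res h hb t dl kap I X _ hX, union_inter_distrib_right]

theorem sig_res (h : Res D D' A) {b : E} (hb : b ∈ A) (P : Par) (R I : Finset E) (j : ℕ)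
    (X : Finset E) (hX : X ⊆ A) :
    sig D' P R I j X b ↔ sig D P (R ∩ A) (I ∩ A) j X b := by
  unfold sig
  rw [rho_res h hb P.g P.n P.t (P.dl j) (P.kap j) R I X hX]

theorem core_res (h : Res D D' A) (P : Par) (R I : Finset E) (j : ℕ)
    (X : Finset E) (hX : X ⊆ A) :
    core D' P R I j X = core D P (R ∩ A) (I ∩ A) j X := by
  unfold core
  have : (X.powerset.filter fun Q => ∀ b ∈ Q, sig D' P R I j Q b) =
      X.powerset.filter fun Q => ∀ b ∈ Q, sig D P (R ∩ A) (I ∩ A) j Q b := by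
    ext Q
    rw [mem_filter, mem_filter, mem_powerset]
    refine and_congr_right fun hQ => ?_
    refine forall_congr' fun b => forall_congr' fun hb => ?_
    exact sig_res h (hX (hQ hb)) P R I j Q (hQ.trans hX)
  rw [this]

theorem BBj_res (h : Res D D' A) (P : Par) (R I : Finset E) (j : ℕ)
    (X : Finset E) (hX : X ⊆ A) :
    BBj D' P R I j X ↔ BBj D P (R ∩ A) (I ∩ A) j X :=
  BB_res h P.g P.n P.t (P.eps j) (P.lam j) (P.zet j) (P.kap j) R I X hX

end restr

section core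

variable {E : Type} [Fintype E] {D : Finset E → Prop}

theorem core_sub (P : Par) (R I : Finset E) (j : ℕ) (X : Finset E) :
    core D P R I j X ⊆ X := by
  unfold core
  refine Finset.sup_le fun Q hQ => ?_
  exact mem_powerset.1 (mem_filter.1 hQ).1

theorem le_core {P : Par} {R I : Finset E} {j : ℕ} {X Q : Finset E} (hQ : Q ⊆ X)
    (h : ∀ b ∈ Q, sig D P R I j Q b) : Q ⊆ core D P R I j X := by
  unfold core
  exact Finset.le_sup (f := id) (mem_filter.2 ⟨mem_powerset.2 hQ, h⟩)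

theorem rel_mono {t dl : ℝ} {kap : ℕ} {I X X' : Finset E} (hX : X ⊆ X') {b : E}
    {W : Finset E} (h : rel D t dl kap I X b W) : rel D t dl kap I X' b W := by
  obtain ⟨U, hU, h1, h2⟩ := h
  exact ⟨U, hU.trans (erase_subset_erase b hX), h1, h2⟩

theorem sig_mono {P : Par} (hg : 0 ≤ P.g) (hg1 : P.g ≤ 1) (hn : 0 ≤ P.n) (hn1 : P.n ≤ 1)
    {R I : Finset E} {j : ℕ} {X X' : Finset E} (hX : X ⊆ X') {b : E}
    (h : sig D P R I j X b) : sig D P R I j X' b := by
  unfold sig at h ⊢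
  refine h.trans ?_
  unfold rho
  exact thin_mono hg hg1 _ fun G _ => thin_mono hn hn1 _ fun N _ => ind_mono (rel_mono hX)

theorem sig_core {P : Par} (hg : 0 ≤ P.g) (hg1 : P.g ≤ 1) (hn : 0 ≤ P.n) (hn1 : P.n ≤ 1)
    {R I : Finset E} {j : ℕ} {X : Finset E} {b : E} (hb : b ∈ core D P R I j X) :
    sig D P R I j (core D P R I j X) b := by
  have hb' := hb
  unfold core at hb'
  rw [Finset.mem_sup] at hb'
  obtain ⟨Q, hQ, hbQ⟩ := hb'
  rw [mem_filter, mem_powerset] at hQ
  exact sig_mono hg hg1 hn hn1 (le_core hQ.1 hQ.2) (hQ.2 b hbQ)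

theorem core_idem {P : Par} (hg : 0 ≤ P.g) (hg1 : P.g ≤ 1) (hn : 0 ≤ P.n) (hn1 : P.n ≤ 1)
    (R I : Finset E) (j : ℕ) (X : Finset E) :
    core D P R I j (core D P R I j X) = core D P R I j X :=
  subset_antisymm (core_sub P R I j _) (le_core subset_rfl fun b hb => sig_core hg hg1 hn hn1 hb)

end core


section inst

variable {E : Type} [Fintype E] (M : Matroid E)

/-- `z` is spanned by `U` -/
def DM (z : E) (U : Finset E) : Prop := z ∈ M.closure (U : Set E)

/-- `z` is spanned by the heavier elements of `U` -/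
def DC (lt : E → E → Prop) (z : E) (U : Finset E) : Prop := cov M lt z fun e => e ∈ U

/-- the heavier elements -/
noncomputable def Hv (lt : E → E → Prop) (z : E) : Finset E := univ.filter fun e => lt z e

theorem mem_Hv {lt : E → E → Prop} {z e : E} : e ∈ Hv lt z ↔ lt z e := by simp [Hv]

theorem DC_res (lt : E → E → Prop) (z : E) : Res (DM M z) (DC M lt z) (Hv lt z) := by
  intro U
  unfold DC DM cov
  have : {e | lt z e ∧ e ∈ U} = ((U ∩ Hv lt z : Finset E) : Set E) := by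
    ext e
    simp only [Set.mem_setOf_eq, coe_inter, Set.mem_inter_iff, mem_coe, mem_Hv]
    tauto
  rw [this]

theorem DM_up (z : E) : Up (DM M z) := fun A B h hA =>
  M.closure_subset_closure (by exact_mod_cast h) hA

theorem DC_up (lt : E → E → Prop) (z : E) : Up (DC M lt z) := fun A B h hA =>
  cov_mono M lt (fun e he => h he) hA

/-- the sample elements with label `l` among the elements of `H` -/
noncomputable def SH (ω : E → L4) (l : L4) (H : Set E) : Finset E :=
  univ.filter fun e => ω e = l ∧ e ∈ H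

theorem SH_hs {lt : E → E → Prop} {ω : E → L4} {l : L4} (hl : l ≠ .v) (z : E) :
    SH ω l (hs L4.v ω lt z) = cls ω l ∩ Hv lt z := by
  ext e
  simp only [SH, hs, cls, mem_filter, mem_univ, true_and, mem_inter, mem_Hv, Set.mem_setOf_eq]
  constructor
  · rintro ⟨h1, h2, h3⟩
    exact ⟨h1, h2⟩
  · rintro ⟨h1, h2⟩
    exact ⟨h1, h2, by rw [h1]; exact hl⟩

theorem w4_nonneg {p s₁ s₂ : ℝ} (hp : 0 ≤ p) (h1 : 0 ≤ s₁) (h2 : 0 ≤ s₂) (h : p + s₁ + s₂ ≤ 1)
    (l : L4) : 0 ≤ w4 p s₁ s₂ l := by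
  cases l
  · exact hp
  · exact h1
  · exact h2
  · show 0 ≤ 1 - p - s₁ - s₂
    linarith

theorem w4_sum (p s₁ s₂ : ℝ) : ∑ l, w4 p s₁ s₂ l = 1 := by
  rw [sum_L4]
  show p + s₁ + s₂ + (1 - p - s₁ - s₂) = 1
  ring

/-- the rule with `n` levels -/
noncomputable def inst {p s₁ s₂ : ℝ} (hp : 0 ≤ p) (h1 : 0 ≤ s₁) (h2 : 0 ≤ s₂)
    (h : p + s₁ + s₂ ≤ 1) (P : Par) (n : ℕ) : Cores E L4 where
  w := w4 p s₁ s₂
  w0 := w4_nonneg hp h1 h2 h
  w1 := w4_sum p s₁ s₂
  v := .v
  n := n
  BB := fun j ω z H X => BBj (DM M z) P (SH ω .s H) (SH ω .i H) j X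
  core := fun j ω z H X => core (DM M z) P (SH ω .s H) (SH ω .i H) j X

/-- the event computed from the elements heavier than `z` -/
def EvH (lt : E → E → Prop) (P : Par) (j : ℕ) (b z : E) (ω : E → L4) : Prop :=
  Ev (DM M z) P (cls ω .s ∩ Hv lt z) (cls ω .i ∩ Hv lt z) j b (cls ω .v ∩ Hv lt z)

variable {M}

theorem EvH_ev {lt : E → E → Prop} {P : Par} {j : ℕ} {b z : E} {ω : E → L4}
    (h : EvH M lt P j b z ω) : Ev (DC M lt z) P (cls ω .s) (cls ω .i) j b (cls ω .v) := by
  obtain ⟨X, hX, hb, hc, h1, h2⟩ := h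
  have hXA : X ⊆ Hv lt z := hX.trans inter_subset_right
  have hr := DC_res M lt z
  refine ⟨X, hX.trans inter_subset_left, hb, ?_, ?_, ?_⟩
  · rw [core_res hr P _ _ _ X hXA]; exact hc
  · rw [BBj_res hr P _ _ _ X hXA]; exact h1
  · rw [core_res hr P _ _ _ X hXA, BBj_res hr P _ _ _ _ ((core_sub P _ _ _ _).trans hXA)]
    exact h2

theorem EvH_update {lt : E → E → Prop} (hirr : ∀ e, ¬ lt e e) {P : Par} {j : ℕ} {b z : E}
    {ω : E → L4} (l : L4) : EvH M lt P j b z (Function.update ω z l) ↔ EvH M lt P j b z ω := by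
  have h : ∀ x : L4, cls (Function.update ω z l) x ∩ Hv lt z = cls ω x ∩ Hv lt z := by
    intro x
    ext e
    simp only [cls, mem_inter, mem_filter, mem_univ, true_and, mem_Hv]
    refine and_congr_left fun he => ?_
    have : e ≠ z := by
      rintro rfl
      exact hirr _ he
    rw [Function.update_of_ne this]
  unfold EvH
  rw [h, h, h]

theorem ev_EvH {p s₁ s₂ : ℝ} {hp : 0 ≤ p} {h1 : 0 ≤ s₁} {h2 : 0 ≤ s₂} {h : p + s₁ + s₂ ≤ 1}
    {P : Par} {n : ℕ} {lt : E → E → Prop} {j : ℕ} {b z : E} {ω : E → L4}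
    (hev : (inst M hp h1 h2 h P n).Ev lt (j + 1) b z ω) : ω z = .v ∧ EvH M lt P j b z ω := by
  obtain ⟨hb, hz, X, hbX, hX, hc, hB, hnB⟩ := hev
  refine ⟨hz, X, ?_, hbX, ?_⟩
  · intro e he
    rw [mem_inter, mem_Hv]
    have h3 : ω e = L4.v := (hX e he).1
    exact ⟨by simp [cls, h3], (hX e he).2⟩
  · have e1 : SH ω .s (hs L4.v ω lt z) = cls ω .s ∩ Hv lt z := SH_hs (by decide) z
    have e2 : SH ω .i (hs L4.v ω lt z) = cls ω .i ∩ Hv lt z := SH_hs (by decide) z
    have hc' : core (DM M z) P (SH ω .s (hs L4.v ω lt z)) (SH ω .i (hs L4.v ω lt z)) (j + 1) X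
      = X := hc
    have hB' : BBj (DM M z) P (SH ω .s (hs L4.v ω lt z)) (SH ω .i (hs L4.v ω lt z)) (j + 1) X :=
      hB
    have hnB' : ¬ BBj (DM M z) P (SH ω .s (hs L4.v ω lt z)) (SH ω .i (hs L4.v ω lt z)) j
      (core (DM M z) P (SH ω .s (hs L4.v ω lt z)) (SH ω .i (hs L4.v ω lt z)) j X) := hnB
    rw [e1, e2] at hc' hB' hnB'
    exact ⟨hc', hB', hnB'⟩

/-- an event which does not depend on the label of `z` -/
theorem EX_indep_label {w : L4 → ℝ} (hw : ∑ l, w l = 1) (z : E) (l₀ : L4)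
    (F : (E → L4) → ℝ) (hF : ∀ ω l, F (Function.update ω z l) = F ω) :
    EX (fun _ : E => w) (fun ω => if ω z = l₀ then F ω else 0) =
      w l₀ * EX (fun _ : E => w) F := by
  rw [EX_cond z l₀ l₀]
  congr 1
  rw [EX_split z l₀ (fun _ : E => w) F]
  simp only [hF]
  rw [← sum_mul, hw, one_mul]

theorem cores_ok {p s₁ s₂ : ℝ} (hp : 0 ≤ p) (h1 : 0 ≤ s₁) (h2 : 0 ≤ s₂) (h : p + s₁ + s₂ ≤ 1)
    {P : Par} {n : ℕ} (hg : 0 ≤ P.g) (hg1 : P.g ≤ 1) (hn : 0 ≤ P.n) (hn1 : P.n ≤ 1)
    (ht : 0 ≤ P.t) (ht1 : P.t ≤ 1) (hk0 : P.kap 0 = 0)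
    (h0 : ∀ j, 0 ≤ P.eps j ∧ 0 ≤ P.lam j ∧ 0 ≤ P.zet j)
    (hlt1 : ∀ j, P.eps j < 1 ∧ P.lam j < 1 ∧ P.zet j < 1)
    (hkn : Fintype.card E ≤ P.kap n) (hdl : P.dl n ≤ (1 - P.t) ^ Fintype.card E)
    (heta : P.eta n ≤ (1 - P.g) ^ Fintype.card E * (1 - P.n) ^ Fintype.card E)
    (lt : E → E → Prop) (hltord : IsStrictTotalOrder E lt) :
    (inst M hp h1 h2 h P n).Ok M lt where
  sub := fun j ω z X _ => core_sub P _ _ j X
  idem := fun j ω z X _ => core_idem hg hg1 hn hn1 _ _ j X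
  top := by
    intro ω z K hK hcl hmin
    set R := SH ω .s (hs L4.v ω lt z)
    set I := SH ω .i (hs L4.v ω lt z)
    have hcard : ∀ X : Finset E, X.card ≤ P.kap n := fun X => (card_le_univ X).trans hkn
    refine ⟨?_, ?_⟩
    · show BBj (DM M z) P R I n K
      have hpsi : ∀ U : Finset E, K ⊆ U → psi (DM M z) P.t I U = 0 := by
        intro U hU
        unfold psi
        have : ∀ N, N ⊆ I → ind (¬ DM M z (U ∪ N)) = 0 := fun N _ =>
          ind_false (not_not.2 (DM_up M z K _ (hU.trans subset_union_left) hcl))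
        rw [thin_congr I this, thin_const]
      have hbb : ∀ G, G ⊆ R → ind (bb (DM M z) P.n P.t (P.eps n) (P.lam n) (P.kap n) R I K G) = 1 := by
        intro G _
        refine ind_true ⟨K, subset_rfl, hcard K, ?_⟩
        unfold fl
        have : ∀ N, N ⊆ R \ G → ind (P.eps n < psi (DM M z) P.t I (K ∪ G ∪ N)) = 0 := by
          intro N _
          rw [hpsi _ (subset_union_left.trans subset_union_left)]
          exact ind_false (not_lt.2 (h0 n).1)
        rw [thin_congr _ this, thin_const]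
        exact (h0 n).2.1
      unfold BBj BB
      rw [thin_congr R hbb, thin_const]
      linarith [(h0 n).2.2]
    · refine subset_antisymm (core_sub P _ _ _ _) (le_core subset_rfl fun b hb => ?_)
      unfold sig
      refine heta.trans ?_
      have hpiv : Piv (DM M z) b (K.erase b) := by
        refine ⟨?_, ?_⟩
        · rw [insert_erase hb]; exact hcl
        · rw [erase_idem]
          exact hmin _ (erase_ssubset hb)
      have hrel : rel (DM M z) P.t (P.dl n) (P.kap n) I K b (∅ ∪ ∅) := by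
        refine ⟨K.erase b, subset_rfl, hcard _, ?_⟩
        refine hdl.trans ?_
        unfold ppiv
        have h3 := thin_ge_empty ht ht1 I
          (F := fun N => ind (Piv (DM M z) b (K.erase b ∪ (∅ ∪ ∅) ∪ N)))
          (fun N _ => ind_nonneg' _)
        have h4 : ind (Piv (DM M z) b (K.erase b ∪ (∅ ∪ ∅) ∪ ∅)) = 1 := by
          rw [union_empty, union_empty, union_empty]
          exact ind_true hpiv
        simp only [h4, mul_one] at h3
        exact h3
      unfold rho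
      have h5 := thin_ge_empty hg hg1 R (F := fun G => thin P.n (R \ G) fun N =>
        ind (rel (DM M z) P.t (P.dl n) (P.kap n) I K b (G ∪ N)))
        (fun G _ => thin_nonneg hn hn1 _ fun N _ => ind_nonneg' _)
      refine le_trans ?_ h5
      refine mul_le_mul_of_nonneg_left ?_ (pow_nonneg (by linarith) _)
      have h6 := thin_ge_empty hn hn1 (R \ ∅) (F := fun N =>
        ind (rel (DM M z) P.t (P.dl n) (P.kap n) I K b (∅ ∪ N)))
        (fun N _ => ind_nonneg' _)
      refine le_trans (le_of_eq ?_) h6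
      rw [ind_true hrel, mul_one]
  zero := by
    intro ω z K hK hB
    have hB' : BBj (DM M z) P (SH ω .s (hs L4.v ω lt z)) (SH ω .i (hs L4.v ω lt z)) 0 K := hB
    show BBj (DM M z) P (SH ω .s (hs L4.v ω lt z)) (SH ω .i (hs L4.v ω lt z)) 0 ∅
    unfold BBj BB at hB' ⊢
    refine hB'.trans (thin_mono hg hg1 _ fun G _ => ind_mono ?_)
    rintro ⟨Y, hY, hYc, h3⟩
    rw [hk0, Nat.le_zero, card_eq_zero] at hYc
    subst hYc
    exact ⟨∅, subset_rfl, by simp, h3⟩
  free := by
    intro j ω z hz K hK hB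
    have hB' : BBj (DM M z) P (SH ω .s (hs L4.v ω lt z)) (SH ω .i (hs L4.v ω lt z)) j K := hB
    have hsub : ∀ l, SH ω l (hs L4.v ω lt z) ⊆ Hv lt z := by
      intro l e he
      simp only [SH, hs, mem_filter, mem_univ, true_and, Set.mem_setOf_eq] at he
      exact mem_Hv.2 he.2.1
    have hKs : K ⊆ Hv lt z := fun e he => mem_Hv.2 (hK e he).2
    have hno : ∀ U, U ⊆ Hv lt z → ¬ DM M z U := by
      intro U hU hc
      refine hz (M.closure_subset_closure ?_ hc)
      intro e he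
      exact mem_Hv.1 (hU he)
    set R := SH ω .s (hs L4.v ω lt z)
    set I := SH ω .i (hs L4.v ω lt z)
    have hpsi : ∀ U : Finset E, U ⊆ Hv lt z → psi (DM M z) P.t I U = 1 := by
      intro U hU
      unfold psi
      have : ∀ N, N ⊆ I → ind (¬ DM M z (U ∪ N)) = 1 := fun N hN =>
        ind_true (hno _ (union_subset hU (hN.trans (hsub _))))
      rw [thin_congr I this, thin_const]
    have hbb : ∀ G, G ⊆ R → ind (bb (DM M z) P.n P.t (P.eps j) (P.lam j) (P.kap j) R I K G) = 0 := by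
      intro G hG
      refine ind_false ?_
      rintro ⟨Y, hY, -, hfl⟩
      unfold fl at hfl
      have : ∀ N, N ⊆ R \ G → ind (P.eps j < psi (DM M z) P.t I (Y ∪ G ∪ N)) = 1 := by
        intro N hN
        rw [hpsi _ (union_subset (union_subset (hY.trans hKs) (hG.trans (hsub _)))
          ((hN.trans sdiff_subset).trans (hsub _)))]
        exact ind_true (hlt1 j).1
      rw [thin_congr _ this, thin_const] at hfl
      exact absurd hfl (not_le.2 (hlt1 j).2.1)
    unfold BBj BB at hB'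
    rw [thin_congr R hbb, thin_const] at hB'
    linarith [(hlt1 j).2.2]

end inst

/-- **Socket of line A** from the numbers and the entrance sum. -/
theorem sockA_of {p s₁ s₂ : ℝ} {P : Par} (hG : Good p s₁ s₂ P) (hE : RowENT) : F.SockA p := by
  intro E _ M hM
  obtain ⟨hp, hs1, hs2, hsum, hg, hg1, hn, hn1, ht, ht1, hT, hT1, hk0, -, -, -, hall, hkap, hde,
    hmain⟩ := hG
  have h0 : ∀ j, 0 ≤ P.eps j ∧ 0 ≤ P.lam j ∧ 0 ≤ P.zet j := fun j =>
    ⟨(hall j).1, (hall j).2.2.1, (hall j).2.2.2.2.1⟩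
  have hlt1 : ∀ j, P.eps j < 1 ∧ P.lam j < 1 ∧ P.zet j < 1 := fun j =>
    ⟨(hall j).2.1, (hall j).2.2.2.1, (hall j).2.2.2.2.2⟩
  have hg1' : 0 < 1 - P.g := by linarith
  have hn1' : 0 < 1 - P.n := by linarith
  have ht1' : 0 < 1 - P.t := by linarith
  obtain ⟨n₁, hn₁⟩ := hkap (Fintype.card E)
  obtain ⟨n₂, hn₂⟩ := hde ((1 - P.t) ^ Fintype.card E) (pow_pos ht1' _)
  obtain ⟨n₃, hn₃⟩ := hde ((1 - P.g) ^ Fintype.card E * (1 - P.n) ^ Fintype.card E)
    (mul_pos (pow_pos hg1' _) (pow_pos hn1' _))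
  set n := max n₁ (max n₂ n₃) with hndef
  have hok : ∀ lt : E → E → Prop, IsStrictTotalOrder E lt →
      (inst M hp.le hs1.le hs2 hsum P n).Ok M lt := fun lt hlt =>
    cores_ok hp.le hs1.le hs2 hsum hg.le hg1.le hn.le hn1.le ht.le ht1.le hk0 h0 hlt1
      (hn₁ n (le_max_left _ _)) (hn₂ n ((le_max_left _ _).trans (le_max_right _ _))).1
      (hn₃ n ((le_max_right _ _).trans (le_max_right _ _))).2 lt hlt
  refine ⟨L4, inferInstance, inferInstance, inst M hp.le hs1.le hs2 hsum P n, rfl, hok,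
    fun lt hlt b hb => ?_⟩
  have hirr : ∀ e, ¬ lt e e := fun e => hlt.irrefl e
  have hw0 := w4_nonneg hp.le hs1.le hs2 hsum
  have hz : ∀ z : E, ∑ j ∈ Icc 1 n, EX (fun _ : E => w4 p s₁ s₂)
      (fun ω : E → L4 => if (inst M hp.le hs1.le hs2 hsum P n).Ev lt j b z ω then (1 : ℝ) else 0) ≤
      p * (Th s₁ s₂ P / 2 * Jn (DC M lt z) (Th s₁ s₂ P) b) := by
    intro z
    have e1 : ∑ j ∈ Icc 1 n, EX (fun _ : E => w4 p s₁ s₂)
        (fun ω : E → L4 => if (inst M hp.le hs1.le hs2 hsum P n).Ev lt j b z ω then (1 : ℝ) else 0) =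
        ∑ j ∈ range n, EX (fun _ : E => w4 p s₁ s₂) (fun ω : E → L4 =>
          if (inst M hp.le hs1.le hs2 hsum P n).Ev lt (j + 1) b z ω then (1 : ℝ) else 0) := by
      rw [range_eq_Ico, sum_Ico_add' (fun j => EX (fun _ : E => w4 p s₁ s₂) (fun ω : E → L4 =>
          if (inst M hp.le hs1.le hs2 hsum P n).Ev lt j b z ω then (1 : ℝ) else 0)) 0 n 1, zero_add]
      rfl
    rw [e1]
    have e2 : ∀ j ∈ range n, EX (fun _ : E => w4 p s₁ s₂) (fun ω : E → L4 =>
          if (inst M hp.le hs1.le hs2 hsum P n).Ev lt (j + 1) b z ω then (1 : ℝ) else 0) ≤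
        p * PR p s₁ s₂ (fun V R I => ind (Ev (DC M lt z) P R I j b V)) := by
      intro j _
      have e3 := EX_indep_label (E := E) (w4_sum p s₁ s₂) z .v
        (fun ω => ind (EvH M lt P j b z ω)) fun ω l => by
          show ind _ = ind _
          rw [EvH_update hirr]
      have e4 : EX (fun _ : E => w4 p s₁ s₂) (fun ω : E → L4 =>
          if (inst M hp.le hs1.le hs2 hsum P n).Ev lt (j + 1) b z ω then (1 : ℝ) else 0) ≤
          EX (fun _ : E => w4 p s₁ s₂)
            (fun ω => if ω z = .v then ind (EvH M lt P j b z ω) else 0) := by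
        refine EX_mono (fun _ => hw0) fun ω => ?_
        by_cases hev : (inst M hp.le hs1.le hs2 hsum P n).Ev lt (j + 1) b z ω
        · obtain ⟨h5, h6⟩ := ev_EvH hev
          rw [if_pos hev, if_pos h5, ind_true h6]
        · rw [if_neg hev]
          split_ifs
          · exact ind_nonneg' _
          · exact le_rfl
      refine e4.trans ?_
      rw [e3]
      refine mul_le_mul_of_nonneg_left ?_ hp.le
      unfold PR
      exact EX_mono (fun _ => hw0) fun ω => ind_mono EvH_ev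
    refine (sum_le_sum e2).trans ?_
    rw [← mul_sum]
    exact mul_le_mul_of_nonneg_left (hmain E (DC M lt z) (DC_up M lt z) b n) hp.le
  have hent := hE E M lt (Th s₁ s₂ P) hT.le hT1.le b
  have hfin : ∑ z ∈ univ.erase b, p * (Th s₁ s₂ P / 2 * Jn (DC M lt z) (Th s₁ s₂ P) b) ≤
      p / 2 := by
    rw [← mul_sum, ← mul_sum]
    have e5 : Th s₁ s₂ P * ∑ z ∈ univ.erase b, Jn (DC M lt z) (Th s₁ s₂ P) b ≤ 1 := hent
    nlinarith
  exact (sum_le_sum fun z _ => hz z).trans hfin

/-- **Row RULE.** -/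
theorem rowRULE : RowRULE := by
  intro p s₁ s₂ P hG hE E _ M hM
  obtain ⟨L, _, _, D, hw, hok, hsum⟩ := sockA_of hG hE E M hM
  refine ⟨_, competitive_of_ev (D := D) hM hok fun lt hlt b hb => ?_⟩
  have h1 := hsum lt hlt b hb
  rw [hw]
  linarith

/-- the main theorem from the numbers and the entrance sum -/
theorem main_of_good (h : ∃ (p s₁ s₂ : ℝ) (P : Par), Good p s₁ s₂ P) (hE : RowENT) : F.Main := by
  obtain ⟨p, s₁, s₂, P, hG⟩ := h
  exact F.main_of_cores hG.1 (sockA_of hG hE)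

end Vale.Agent.P331.H316.R763
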